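import Mathlib
import Crest.Prelude.Def_PolyominoGame

/-!
# S0047 (Snaky): certificate-independent bridge

`MWin n M B` : with Maker stones `M`, Breaker stones `B` and Maker to move, Maker can make the
set of his stones contain a copy of Snaky using at most `n` further claims, against every legal
play of Breaker.  `result_of_mwin : MWin 21 ∅ ∅ → (statement of S0047)`.
-/

set_option autoImplicit false

namespace Crest.Agent.Helper20.Snaky

open Crest.CombinatoricsR.PolyominoGame

/-- Board cells. -/
abbrev Cell := ℤ × ℤ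

/-- Maker (to move) wins with at most `n` further claims. -/
inductive MWin : ℕ → Finset Cell → Finset Cell → Prop
  | now (n : ℕ) (M B : Finset Cell) : ContainsCopy (↑M : Set Cell) → MWin n M B
  | step (n : ℕ) (M B : Finset Cell) (m : Cell) : m ∉ M → m ∉ B →
      (∀ r : Cell, r ∉ M → r ≠ m → r ∉ B → MWin n (insert m M) (insert r B)) →
      MWin (n + 1) M B

theorem containsCopy_mono {X Y : Set Cell} (hXY : X ⊆ Y) (h : ContainsCopy X) :
    ContainsCopy Y := by
  obtain ⟨t, e1, e2, h1, h2, h3⟩ := h
  exact ⟨t, e1, e2, h1, h2, h3.imp (fun h p hp => hXY (h p hp)) (fun h p hp => hXY (h p hp))⟩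

theorem exists_fresh (S : Finset Cell) : ∃ c : Cell, c ∉ S :=
  Infinite.exists_notMem_finset S

/-- Monotonicity: more Maker stones and fewer Breaker stones only help Maker. -/
theorem MWin.mono {n : ℕ} {M B : Finset Cell} (h : MWin n M B) :
    ∀ {M' B' : Finset Cell}, M ⊆ M' → B' ⊆ B → MWin n M' B' := by
  induction h with
  | now n M B hc =>
      intro M' B' hM _
      exact MWin.now _ _ _ (containsCopy_mono (by exact_mod_cast hM) hc)
  | step n M B m hmM hmB _ ih =>
      intro M' B' hM hB
      have hmB' : m ∉ B' := fun hm => hmB (hB hm)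
      -- a reply that is legal in the original position
      obtain ⟨r₀, hr₀⟩ := exists_fresh (insert m M ∪ B)
      rw [Finset.mem_union, not_or, Finset.mem_insert, not_or] at hr₀
      by_cases hmM' : m ∈ M'
      · -- Maker already owns `m`: claim any fresh cell instead
        obtain ⟨m', hm'⟩ := exists_fresh (M' ∪ B')
        rw [Finset.mem_union, not_or] at hm'
        refine MWin.step n M' B' m' hm'.1 hm'.2 (fun r hrM' hrm' hrB' => ?_)
        have hsubM : insert m M ⊆ insert m' M' := by
          intro x hx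
          rcases Finset.mem_insert.mp hx with rfl | hx
          · exact Finset.mem_insert_of_mem hmM'
          · exact Finset.mem_insert_of_mem (hM hx)
        by_cases hrB : r ∈ B
        · refine ih r₀ hr₀.1.2 hr₀.1.1 hr₀.2 hsubM ?_
          intro x hx
          rcases Finset.mem_insert.mp hx with rfl | hx
          · exact Finset.mem_insert_of_mem hrB
          · exact Finset.mem_insert_of_mem (hB hx)
        · have hrM : r ∉ M := fun h => hrM' (hM h)
          have hrm : r ≠ m := fun h => hrM' (h ▸ hmM')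
          exact ih r hrM hrm hrB hsubM (Finset.insert_subset_insert r hB)
      · refine MWin.step n M' B' m hmM' hmB' (fun r hrM' hrm hrB' => ?_)
        have hsubM : insert m M ⊆ insert m M' := Finset.insert_subset_insert m hM
        by_cases hrB : r ∈ B
        · refine ih r₀ hr₀.1.2 hr₀.1.1 hr₀.2 hsubM ?_
          intro x hx
          rcases Finset.mem_insert.mp hx with rfl | hx
          · exact Finset.mem_insert_of_mem hrB
          · exact Finset.mem_insert_of_mem (hB hx)
        · have hrM : r ∉ M := fun h => hrM' (hM h)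
          exact ih r hrM hrm hrB hsubM (Finset.insert_subset_insert r hB)

/-- Monotonicity in the number of claims. -/
theorem MWin.mono_n {n : ℕ} {M B : Finset Cell} (h : MWin n M B) :
    ∀ {n' : ℕ}, n ≤ n' → MWin n' M B := by
  induction h with
  | now n M B hc => intro n' _; exact MWin.now _ _ _ hc
  | step n M B m hmM hmB _ ih =>
      intro n' hn
      obtain ⟨k, rfl⟩ : ∃ k, n' = k + 1 := ⟨n' - 1, by omega⟩
      exact MWin.step k M B m hmM hmB (fun r h1 h2 h3 => ih r h1 h2 h3 (by omega))

/-- Zone form of a Maker win: Maker stones `M`, Breaker stones `Bz` inside the zone `Z`; any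
Breaker stones outside `Z` are irrelevant. -/
def ZWin (n : ℕ) (M Bz Z : Finset Cell) : Prop :=
  ∀ B : Finset Cell, (∀ x ∈ B, x ∈ Z → x ∈ Bz) → MWin n M B

theorem ZWin.mwin {n : ℕ} {M Bz Z : Finset Cell} (h : ZWin n M Bz Z) : MWin n M Bz :=
  h Bz (fun _ hx _ => hx)

theorem ZWin.mono {n n' : ℕ} {M M' Bz Bz' Z Z' : Finset Cell} (h : ZWin n M Bz Z)
    (hn : n ≤ n') (hM : M ⊆ M') (hZ : Z ⊆ Z') (hB : ∀ x ∈ Bz', x ∈ Z → x ∈ Bz) :
    ZWin n' M' Bz' Z' := by
  intro B hBZ
  refine ((h B ?_).mono hM (Finset.Subset.refl _)).mono_n hn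
  intro x hx hxZ
  exact hB x (hBZ x hx (hZ hxZ)) hxZ

/-- Leaf rule: a copy is already present. -/
theorem ZWin.leaf {n : ℕ} {M Bz Z : Finset Cell} (hc : ContainsCopy (↑M : Set Cell)) :
    ZWin n M Bz Z :=
  fun B _ => MWin.now n M B hc

/-- Node rule: Maker claims `m`; the default continuation (zone `Z₀`) answers every reply
outside `Z₀`; every free cell of `Z₀` needs its own continuation. -/
theorem ZWin.node {n : ℕ} {M Bz Z : Finset Cell} (m : Cell) (hmM : m ∉ M) (hmZ : m ∈ Z)
    (hmB : m ∉ Bz) (Z₀ : Finset Cell) (hZ₀ : Z₀ ⊆ Z) (h₀ : ZWin n (insert m M) Bz Z₀)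
    (hrep : ∀ r ∈ Z₀, r ∉ M → r ≠ m → r ∉ Bz →
      ∃ Z' : Finset Cell, Z' ⊆ Z ∧ ZWin n (insert m M) (insert r Bz) Z') :
    ZWin (n + 1) M Bz Z := by
  intro B hB
  have hmB' : m ∉ B := fun hm => hmB (hB m hm hmZ)
  refine MWin.step n M B m hmM hmB' (fun r hrM hrm _ => ?_)
  by_cases hr : r ∈ Z₀ ∧ r ∉ Bz
  · obtain ⟨Z', hZ', hw⟩ := hrep r hr.1 hrM hrm hr.2
    refine hw (insert r B) ?_
    intro x hx hxZ'
    rcases Finset.mem_insert.mp hx with rfl | hx
    · exact Finset.mem_insert_self _ _
    · exact Finset.mem_insert_of_mem (hB x hx (hZ' hxZ'))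
  · refine h₀ (insert r B) ?_
    intro x hx hxZ₀
    rcases Finset.mem_insert.mp hx with rfl | hx
    · by_contra hxB
      exact hr ⟨hxZ₀, hxB⟩
    · exact hB x hx (hZ₀ hxZ₀)

/-- Threat rule (special case of the node rule, stated directly): Maker claims `m`, after which
claiming `t` would complete a copy; so Breaker must answer `t`. -/
theorem ZWin.threat {n : ℕ} {M Bz Z : Finset Cell} (hn : 1 ≤ n) (m t : Cell) (hmM : m ∉ M)
    (hmZ : m ∈ Z) (hmB : m ∉ Bz) (htM : t ∉ M) (htm : t ≠ m) (htZ : t ∈ Z) (htB : t ∉ Bz)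
    (hc : ContainsCopy (↑(insert t (insert m M)) : Set Cell))
    (hnext : ∃ Z' : Finset Cell, Z' ⊆ Z ∧ ZWin n (insert m M) (insert t Bz) Z') :
    ZWin (n + 1) M Bz Z := by
  obtain ⟨k, rfl⟩ : ∃ k, n = k + 1 := ⟨n - 1, by omega⟩
  have h1 : ZWin (k + 1) (insert m M) Bz {t} := by
    refine ZWin.node t ?_ (Finset.mem_singleton_self t) htB ∅ (Finset.empty_subset _)
      (ZWin.leaf hc) (fun r hr => absurd hr (Finset.notMem_empty r))
    simp only [Finset.mem_insert, not_or]
    exact ⟨htm, htM⟩
  refine ZWin.node m hmM hmZ hmB {t} (Finset.singleton_subset_iff.mpr htZ) h1 ?_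
  intro r hr _ _ _
  rw [Finset.mem_singleton] at hr
  subst hr
  exact hnext

/-- Double threat: Maker claims `m`, after which either of two distinct free cells `t₁`, `t₂`
would complete a copy. -/
theorem ZWin.double {n : ℕ} {M Bz Z : Finset Cell} (hn : 1 ≤ n) (m t₁ t₂ : Cell) (hmM : m ∉ M)
    (hmZ : m ∈ Z) (hmB : m ∉ Bz) (h12 : t₁ ≠ t₂)
    (ht₁M : t₁ ∉ M) (ht₁m : t₁ ≠ m) (ht₁Z : t₁ ∈ Z) (ht₁B : t₁ ∉ Bz)
    (ht₂M : t₂ ∉ M) (ht₂m : t₂ ≠ m) (ht₂Z : t₂ ∈ Z) (ht₂B : t₂ ∉ Bz)
    (hc₁ : ContainsCopy (↑(insert t₁ (insert m M)) : Set Cell))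
    (hc₂ : ContainsCopy (↑(insert t₂ (insert m M)) : Set Cell)) :
    ZWin (n + 1) M Bz Z := by
  refine ZWin.threat hn m t₁ hmM hmZ hmB ht₁M ht₁m ht₁Z ht₁B hc₁ ⟨{t₂}, ?_, ?_⟩
  · exact Finset.singleton_subset_iff.mpr ht₂Z
  · obtain ⟨k, rfl⟩ : ∃ k, n = k + 1 := ⟨n - 1, by omega⟩
    refine ZWin.node t₂ ?_ (Finset.mem_singleton_self t₂) ?_ ∅ (Finset.empty_subset _)
      (ZWin.leaf hc₂) (fun r hr => absurd hr (Finset.notMem_empty r))
    · simp only [Finset.mem_insert, not_or]
      exact ⟨ht₂m, ht₂M⟩
    · simp only [Finset.mem_insert, not_or]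
      exact ⟨fun h => h12 h.symm, ht₂B⟩

/-- From a zone win on the empty board to the abstract win. -/
theorem mwin_of_zwin {n : ℕ} {Z : Finset Cell} (h : ZWin n ∅ ∅ Z) : MWin n ∅ ∅ :=
  h.mwin

/-- A good claim for Maker when `n` claims remain after it. -/
def Good (n : ℕ) (M B : Finset Cell) (m : Cell) : Prop :=
  m ∉ M ∧ m ∉ B ∧ ∀ r : Cell, r ∉ M → r ≠ m → r ∉ B → MWin n (insert m M) (insert r B)

theorem exists_good {n : ℕ} {M B : Finset Cell} (h : MWin (n + 1) M B) :
    ∃ m, Good n M B m := by
  cases h with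
  | now _ _ _ hc =>
      obtain ⟨m, hm⟩ := exists_fresh (M ∪ B)
      rw [Finset.mem_union, not_or] at hm
      refine ⟨m, hm.1, hm.2, fun r _ _ _ => MWin.now _ _ _ (containsCopy_mono ?_ hc)⟩
      intro x hx
      simp only [Finset.coe_insert]
      exact Set.mem_insert_of_mem _ hx
  | step _ _ _ m hM hB hr => exact ⟨m, hM, hB, hr⟩

theorem containsCopy_of_mwin_zero {M B : Finset Cell} (h : MWin 0 M B) :
    ContainsCopy (↑M : Set Cell) := by
  cases h with
  | now _ _ _ hc => exact hc

open Classical in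
/-- Maker's claim in the position `(M, B)` when `n` claims remain (this one included). -/
noncomputable def mv (n : ℕ) (M B : Finset Cell) : Cell :=
  if h : ∃ m, Good (n - 1) M B m then h.choose else (exists_fresh (M ∪ B)).choose

theorem mv_good {n : ℕ} {M B : Finset Cell} (h : MWin (n + 1) M B) :
    Good n M B (mv (n + 1) M B) := by
  have h' : ∃ m, Good (n + 1 - 1) M B m := by simpa using exists_good h
  unfold mv
  rw [dif_pos h']
  simpa using h'.choose_spec

/-- Maker's claim after the list of Breaker replies `l`, from the position `(M, B)` with `n`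
claims remaining. -/
noncomputable def play : ℕ → Finset Cell → Finset Cell → List Cell → Cell
  | n, M, B, [] => mv n M B
  | n, M, B, r :: l => play (n - 1) (insert (mv n M B) M) (insert r B) l

/-- The `k`-th further claim against the reply sequence `b`. -/
noncomputable def cl (n : ℕ) (M B : Finset Cell) (b : ℕ → Cell) (k : ℕ) : Cell :=
  play n M B ((List.range k).map b)

theorem cl_zero (n : ℕ) (M B : Finset Cell) (b : ℕ → Cell) : cl n M B b 0 = mv n M B := by
  simp [cl, play]

theorem cl_succ (n : ℕ) (M B : Finset Cell) (b : ℕ → Cell) (k : ℕ) :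
    cl n M B b (k + 1) =
      cl (n - 1) (insert (mv n M B) M) (insert (b 0) B) (fun i => b (i + 1)) k := by
  unfold cl
  rw [List.range_succ_eq_map, List.map_cons, List.map_map, play]
  rfl

/-- Main induction. -/
theorem play_spec : ∀ (n : ℕ) (M B : Finset Cell) (b : ℕ → Cell), MWin n M B →
    (∀ k, k + 1 < n → b k ∉ M ∧ b k ∉ B ∧ (∀ j, j ≤ k → b k ≠ cl n M B b j) ∧
      (∀ j, j < k → b k ≠ b j)) →
    (∀ k, k < n → cl n M B b k ∉ M ∧ cl n M B b k ∉ B ∧
      (∀ j, j < k → cl n M B b k ≠ cl n M B b j) ∧ (∀ j, j < k → cl n M B b k ≠ b j)) ∧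
    ContainsCopy ((↑M : Set Cell) ∪ {c | ∃ j, j < n ∧ c = cl n M B b j}) := by
  intro n
  induction n with
  | zero =>
      intro M B b h _
      refine ⟨fun k hk => absurd hk (Nat.not_lt_zero k), ?_⟩
      exact containsCopy_mono Set.subset_union_left (containsCopy_of_mwin_zero h)
  | succ n ih =>
      intro M B b h hb
      have hg := mv_good h
      set m₀ := mv (n + 1) M B with hm₀
      obtain ⟨hmM, hmB, hrep⟩ := hg
      have hc0 : cl (n + 1) M B b 0 = m₀ := cl_zero _ _ _ _
      have hcs : ∀ k, cl (n + 1) M B b (k + 1) =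
          cl n (insert m₀ M) (insert (b 0) B) (fun i => b (i + 1)) k := by
        intro k
        have := cl_succ (n + 1) M B b k
        simpa using this
      rcases Nat.eq_zero_or_pos n with hn | hn
      · -- last claim
        subst hn
        obtain ⟨r, hr⟩ := exists_fresh (insert m₀ M ∪ B)
        rw [Finset.mem_union, not_or, Finset.mem_insert, not_or] at hr
        have hw := hrep r hr.1.2 hr.1.1 hr.2
        have hcopy := containsCopy_of_mwin_zero hw
        refine ⟨?_, ?_⟩
        · intro k hk
          have hk0 : k = 0 := by omega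
          subst hk0
          rw [hc0]
          exact ⟨hmM, hmB, fun j hj => absurd hj (Nat.not_lt_zero j),
            fun j hj => absurd hj (Nat.not_lt_zero j)⟩
        · refine containsCopy_mono ?_ hcopy
          intro x hx
          simp only [Finset.coe_insert, Set.mem_insert_iff, Finset.mem_coe] at hx
          rcases hx with hx | hx
          · right
            exact ⟨0, by omega, by rw [hc0]; exact hx⟩
          · left
            exact hx
      · -- Breaker replies `b 0`
        obtain ⟨hb0M, hb0B, hb0c, -⟩ := hb 0 (by omega)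
        have hb0m : b 0 ≠ m₀ := by
          have := hb0c 0 le_rfl
          rwa [hc0] at this
        have hw := hrep (b 0) hb0M hb0m hb0B
        have hb' : ∀ k, k + 1 < n → (fun i => b (i + 1)) k ∉ insert m₀ M ∧
            (fun i => b (i + 1)) k ∉ insert (b 0) B ∧
            (∀ j, j ≤ k → (fun i => b (i + 1)) k ≠
              cl n (insert m₀ M) (insert (b 0) B) (fun i => b (i + 1)) j) ∧
            (∀ j, j < k → (fun i => b (i + 1)) k ≠ (fun i => b (i + 1)) j) := by
          intro k hk
          obtain ⟨h1, h2, h3, h4⟩ := hb (k + 1) (by omega)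
          refine ⟨?_, ?_, ?_, ?_⟩
          · simp only [Finset.mem_insert, not_or]
            refine ⟨?_, h1⟩
            have := h3 0 (by omega)
            rwa [hc0] at this
          · simp only [Finset.mem_insert, not_or]
            exact ⟨h4 0 (by omega), h2⟩
          · intro j hj
            have := h3 (j + 1) (by omega)
            rwa [hcs] at this
          · intro j hj
            exact h4 (j + 1) (by omega)
        obtain ⟨ih1, ih2⟩ := ih (insert m₀ M) (insert (b 0) B) (fun i => b (i + 1)) hw hb'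
        refine ⟨?_, ?_⟩
        · intro k hk
          rcases Nat.eq_zero_or_pos k with hk0 | hk0
          · subst hk0
            rw [hc0]
            exact ⟨hmM, hmB, fun j hj => absurd hj (Nat.not_lt_zero j),
              fun j hj => absurd hj (Nat.not_lt_zero j)⟩
          · obtain ⟨k', rfl⟩ : ∃ k', k = k' + 1 := ⟨k - 1, by omega⟩
            obtain ⟨g1, g2, g3, g4⟩ := ih1 k' (by omega)
            simp only [Finset.mem_insert, not_or] at g1 g2
            rw [hcs]
            refine ⟨g1.2, g2.2, ?_, ?_⟩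
            · intro j hj
              rcases Nat.eq_zero_or_pos j with hj0 | hj0
              · subst hj0
                rw [hc0]
                exact g1.1
              · obtain ⟨j', rfl⟩ : ∃ j', j = j' + 1 := ⟨j - 1, by omega⟩
                rw [hcs]
                exact g3 j' (by omega)
            · intro j hj
              rcases Nat.eq_zero_or_pos j with hj0 | hj0
              · subst hj0
                exact g2.1
              · obtain ⟨j', rfl⟩ : ∃ j', j = j' + 1 := ⟨j - 1, by omega⟩
                exact g4 j' (by omega)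
        · refine containsCopy_mono ?_ ih2
          intro x hx
          rcases hx with hx | hx
          · simp only [Finset.coe_insert, Set.mem_insert_iff, Finset.mem_coe] at hx
            rcases hx with hx | hx
            · right
              exact ⟨0, by omega, by rw [hc0]; exact hx⟩
            · left
              exact hx
          · obtain ⟨j, hj, hxj⟩ := hx
            right
            exact ⟨j + 1, by omega, by rw [hcs]; exact hxj⟩

/-- The bridge: an abstract Maker win with 21 claims from the empty board gives the statement of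
S0047 (same text as the frozen statement). -/
theorem result_of_mwin (h : MWin 21 ∅ ∅) :
    ∃ σ : List (ℤ × ℤ) → ℤ × ℤ, ∀ b : ℕ → ℤ × ℤ,
      (∀ k : ℕ, k < 20 →
        (∀ j : ℕ, j ≤ k → b k ≠ Crest.CombinatoricsR.PolyominoGame.makerClaim σ b j) ∧
        (∀ j : ℕ, j < k → b k ≠ b j)) →
      (∀ k : ℕ, k ≤ 20 →
        (∀ j : ℕ, j < k → Crest.CombinatoricsR.PolyominoGame.makerClaim σ b k ≠
          Crest.CombinatoricsR.PolyominoGame.makerClaim σ b j) ∧
        (∀ j : ℕ, j < k → Crest.CombinatoricsR.PolyominoGame.makerClaim σ b k ≠ b j)) ∧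
      Crest.CombinatoricsR.PolyominoGame.ContainsCopy
        {c | ∃ j : ℕ, j ≤ 20 ∧ c = Crest.CombinatoricsR.PolyominoGame.makerClaim σ b j} := by
  refine ⟨play 21 ∅ ∅, fun b hb => ?_⟩
  have hmc : ∀ k, makerClaim (play 21 ∅ ∅) b k = cl 21 ∅ ∅ b k := fun k => rfl
  have hb' : ∀ k, k + 1 < 21 → b k ∉ (∅ : Finset Cell) ∧ b k ∉ (∅ : Finset Cell) ∧
      (∀ j, j ≤ k → b k ≠ cl 21 ∅ ∅ b j) ∧ (∀ j, j < k → b k ≠ b j) := by
    intro k hk
    obtain ⟨h1, h2⟩ := hb k (by omega)
    exact ⟨Finset.notMem_empty _, Finset.notMem_empty _, fun j hj => h1 j hj, h2⟩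
  obtain ⟨p1, p2⟩ := play_spec 21 ∅ ∅ b h hb'
  refine ⟨?_, ?_⟩
  · intro k hk
    obtain ⟨-, -, g3, g4⟩ := p1 k (by omega)
    exact ⟨fun j hj => by rw [hmc, hmc]; exact g3 j hj, fun j hj => by rw [hmc]; exact g4 j hj⟩
  · refine containsCopy_mono ?_ p2
    intro x hx
    rcases hx with hx | hx
    · simp at hx
    · obtain ⟨j, hj, hxj⟩ := hx
      exact ⟨j, by omega, by rw [hmc]; exact hxj⟩

end Crest.Agent.Helper20.Snaky
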